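import Vale.Agent.P243.Final

namespace Vale.Agent.Results.P243.BangFalse

open Vale.Agent.P243

theorem result :
    (¬ ∀ K : Set E3, IsConvexBody K → ∀ C : CylCover K, 1 / 2 * Amin K ≤ C.totalArea) ∧
    (¬ ∀ K : Set E3, IsConvexBody K → ∀ C : CylCover K, 1 / 2 ≤ C.relArea) ∧
    (∃ K : Set E3, IsConvexBody K ∧ 0 < Amin K ∧ (∀ u : E3, ‖u‖ = 1 → 0 < projArea K u) ∧
      (∃ C : CylCover K, C.totalArea ≤ 1999 / 4000 * Amin K) ∧
      (∃ C : CylCover K, C.relArea ≤ 43 / 100)) ∧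
    c3 ≤ 1999 / 4000 ∧ r3 ≤ 43 / 100 := by
  refine ⟨fun h => ?_, fun h => ?_,
    ⟨tet, isConvexBody_tet, Amin_tet_pos, projArea_tet_pos, exists_total, coverB⟩, c3_le, r3_le⟩
  · obtain ⟨C, hC⟩ := exists_total
    have h1 := h tet isConvexBody_tet C
    have h2 := Amin_tet_pos
    linarith
  · obtain ⟨C, hC⟩ := coverB
    have h1 := h tet isConvexBody_tet C
    linarith

end Vale.Agent.Results.P243.BangFalse
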